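import Vale.Agent.P088.H776.Dec
import Mathlib.MeasureTheory.Measure.CharacteristicFunction.Basic

/-!
# P088, two general metrics: compactness and Fourier uniqueness for continuous functions
-/

open MeasureTheory Set Filter Topology
open scoped ContDiff Matrix

noncomputable section

namespace Vale.Agent.P088.H641.L

open Vale.Agent.P088.LR Vale.Agent.P088.H776

variable {n : ℕ}

/-- Uniformly convergent subsequence of equi-Lipschitz functions supported in a fixed ball. -/
theorem aaV {E : Type*} [NormedAddCommGroup E] [ProperSpace E] {K R : ℝ} (f : ℕ → V n → E)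
    (hB : ∀ m x, ‖f m x‖ ≤ 1) (hL : ∀ m x y, dist (f m x) (f m y) ≤ K * dist x y)
    (h0 : ∀ m, ∀ x ∉ Metric.closedBall (0 : V n) R, f m x = 0) :
    ∃ (φ : ℕ → ℕ) (g : V n → E), StrictMono φ ∧ Continuous g ∧
      (∀ x ∉ Metric.closedBall (0 : V n) R, g x = 0) ∧
      ∀ δ > 0, ∃ N, ∀ m ≥ N, ∀ x, dist (f (φ m) x) (g x) ≤ δ := by
  have hK : ∀ m, Continuous (f m) := fun m => by
    have : LipschitzWith (Real.toNNReal K) (f m) := LipschitzWith.of_dist_le_mul fun x y =>
      (hL m x y).trans (mul_le_mul_of_nonneg_right (Real.le_coe_toNNReal K) dist_nonneg)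
    exact this.continuous
  set S := Metric.closedBall (0 : V n) R with hS
  have hc : IsCompact S := isCompact_closedBall 0 R
  have : CompactSpace S := isCompact_iff_compactSpace.1 hc
  let F : ℕ → BoundedContinuousFunction S E := fun m =>
    BoundedContinuousFunction.mkOfCompact ⟨fun x => f m x, (hK m).comp continuous_subtype_val⟩
  have hA : IsCompact (closure (Set.range F)) := by
    refine BoundedContinuousFunction.arzela_ascoli (Metric.closedBall (0 : E) 1)
      (isCompact_closedBall 0 1) _ ?_ ?_
    · rintro g x ⟨m, rfl⟩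
      exact mem_closedBall_zero_iff.2 (hB m x)
    · refine Metric.equicontinuous_of_continuity_modulus (fun t => K * t) ?_ _ ?_
      · have : Tendsto (fun t : ℝ => K * t) (𝓝 0) (𝓝 (K * 0)) :=
          (continuous_const.mul continuous_id).tendsto 0
        rwa [mul_zero] at this
      · rintro x y ⟨g, m, rfl⟩
        exact hL m x y
  obtain ⟨a, -, φ, hφ, ha⟩ := hA.tendsto_subseq (x := F) (fun m => subset_closure ⟨m, rfl⟩)
  classical
  refine ⟨φ, fun x => if hx : x ∈ S then a ⟨x, hx⟩ else 0, hφ, ?_, ?_, ?_⟩
  rotate_left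
  · intro x hx
    beta_reduce
    rw [dif_neg hx]
  · intro δ hδ
    obtain ⟨N, hN⟩ := Metric.tendsto_atTop.1 ha δ hδ
    refine ⟨N, fun m hm x => ?_⟩
    beta_reduce
    by_cases hx : x ∈ S
    · rw [dif_pos hx]
      have h1 : dist (F (φ m) ⟨x, hx⟩) (a ⟨x, hx⟩) ≤ dist (F (φ m)) a :=
        BoundedContinuousFunction.dist_coe_le_dist _
      exact h1.trans (hN m hm).le
    · rw [dif_neg hx, h0 _ x hx, dist_self]
      exact hδ.le
  · have hu : TendstoUniformly (fun m => f (φ m))
        (fun x => if hx : x ∈ S then a ⟨x, hx⟩ else 0) atTop := by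
      rw [Metric.tendstoUniformly_iff]
      intro δ hδ
      obtain ⟨N, hN⟩ := Metric.tendsto_atTop.1 ha (δ / 2) (half_pos hδ)
      filter_upwards [eventually_ge_atTop N] with m hm x
      rw [dist_comm]
      by_cases hx : x ∈ S
      · rw [dif_pos hx]
        have h1 : dist (F (φ m) ⟨x, hx⟩) (a ⟨x, hx⟩) ≤ dist (F (φ m)) a :=
          BoundedContinuousFunction.dist_coe_le_dist _
        have h2 := hN m hm
        have h3 : dist (F (φ m) ⟨x, hx⟩) (a ⟨x, hx⟩) < δ := by
          have h4 : dist (F (φ m)) a < δ / 2 := h2
          linarith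
        exact h3
      · rw [dif_neg hx, h0 _ x hx, dist_self]
        exact hδ
    exact hu.continuous (Frequently.of_forall fun m => hK (φ m))

/-- The pairing `∑ v_i w_i`. -/
def pai (n : ℕ) : V n →ₗ[ℝ] V n →ₗ[ℝ] ℝ :=
  LinearMap.mk₂ ℝ (fun v w => ∑ i, v i * w i)
    (fun a b w => by simp only [Pi.add_apply, add_mul, Finset.sum_add_distrib])
    (fun c a w => by simp only [Pi.smul_apply, smul_eq_mul, Finset.mul_sum, mul_assoc])
    (fun a b w => by simp only [Pi.add_apply, mul_add, Finset.sum_add_distrib])
    (fun c a w => by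
      simp only [Pi.smul_apply, smul_eq_mul, Finset.mul_sum]
      exact Finset.sum_congr rfl fun i _ => by ring)

theorem pai_apply (v w : V n) : pai n v w = ∑ i, v i * w i := rfl

theorem four_ex (v w : V n) : ((Real.fourierChar (pai n v w) : Circle) : ℂ) = ex w v := by
  rw [Real.fourierChar_apply, pai_apply, ex]
  congr 1
  push_cast
  rw [show (∑ i, (v i : ℂ) * (w i : ℂ)) = ∑ i, (w i : ℂ) * (v i : ℂ) from
    Finset.sum_congr rfl fun i _ => mul_comm _ _]
  ring

/-- **Fourier uniqueness** for continuous functions with compact support. -/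
theorem fzero {f : V n → ℝ} (hf : Continuous f) (hc : HasCompactSupport f)
    (h : ∀ ξ, ft (fun x => (f x : ℂ)) ξ = 0) : ∀ x, f x = 0 := by
  have hi : Integrable f := hf.integrable_of_hasCompactSupport hc
  let P : Measure (V n) := volume.withDensity fun x => ENNReal.ofReal (f x)
  let P' : Measure (V n) := volume.withDensity fun x => ENNReal.ofReal (-f x)
  have hP : IsFiniteMeasure P := isFiniteMeasure_withDensity_ofReal hi.2
  have hP' : IsFiniteMeasure P' := isFiniteMeasure_withDensity_ofReal hi.neg.2
  have hm : Measurable fun x => ENNReal.ofReal (f x) := hf.measurable.ennreal_ofReal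
  have hm' : Measurable fun x => ENNReal.ofReal (-f x) := hf.measurable.neg.ennreal_ofReal
  have hbil : Continuous fun p : V n × V n => pai n p.1 p.2 := by
    simp only [pai_apply]
    fun_prop
  have key : ∀ w : V n, ∫ v, (ex w v) ∂P = ∫ v, (ex w v) ∂P' := by
    intro w
    have e1 : ∫ v, (ex w v) ∂P = ∫ v, ((max (f v) 0 : ℝ) : ℂ) * ex w v := by
      rw [integral_withDensity_eq_integral_toReal_smul hm
        (Eventually.of_forall fun _ => ENNReal.ofReal_lt_top)]
      refine integral_congr_ae (Eventually.of_forall fun v => ?_)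
      simp only
      rw [ENNReal.toReal_ofReal', Complex.real_smul]
    have e2 : ∫ v, (ex w v) ∂P' = ∫ v, ((max (-f v) 0 : ℝ) : ℂ) * ex w v := by
      rw [integral_withDensity_eq_integral_toReal_smul hm'
        (Eventually.of_forall fun _ => ENNReal.ofReal_lt_top)]
      refine integral_congr_ae (Eventually.of_forall fun v => ?_)
      simp only
      rw [ENNReal.toReal_ofReal', Complex.real_smul]
    have ce : Continuous (ex w) := (ex_contDiff w).continuous
    have i1 : Integrable fun v => ((max (f v) 0 : ℝ) : ℂ) * ex w v := by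
      refine ((Complex.continuous_ofReal.comp (hf.max continuous_const)).mul
        ce).integrable_of_hasCompactSupport (HasCompactSupport.mul_right ?_)
      exact hc.comp_left (g := fun t : ℝ => ((max t 0 : ℝ) : ℂ)) (by simp)
    have i2 : Integrable fun v => ((max (-f v) 0 : ℝ) : ℂ) * ex w v := by
      refine ((Complex.continuous_ofReal.comp (hf.neg.max continuous_const)).mul
        ce).integrable_of_hasCompactSupport (HasCompactSupport.mul_right ?_)
      exact hc.comp_left (g := fun t : ℝ => ((max (-t) 0 : ℝ) : ℂ)) (by simp)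
    rw [e1, e2, ← sub_eq_zero, ← integral_sub i1 i2]
    have h1 := h (-w)
    unfold ft at h1
    rw [neg_neg] at h1
    rw [← h1]
    refine integral_congr_ae (Eventually.of_forall fun v => ?_)
    simp only
    rw [← sub_mul]
    congr 1
    have : (max (f v) 0 : ℝ) - max (-f v) 0 = f v := by
      rcases le_total 0 (f v) with h0 | h0
      · rw [max_eq_left h0, max_eq_right (by linarith)]; ring
      · rw [max_eq_right h0, max_eq_left (by linarith)]; ring
    rw [← Complex.ofReal_sub, this]
  have hPP : P = P' := by
    refine ext_of_integral_char_eq (L := pai n) (e := Real.fourierChar)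
      Real.continuous_fourierChar ?_ ?_ hbil fun w => ?_
    · intro h1
      have h2 : ((Real.fourierChar (1 / 2 : ℝ) : Circle) : ℂ) = 1 := by rw [h1]; simp
      rw [Real.fourierChar_apply] at h2
      have h3 : ((2 * Real.pi * (1 / 2 : ℝ) : ℝ) : ℂ) * Complex.I = Real.pi * Complex.I := by
        push_cast; ring
      rw [h3, Complex.exp_pi_mul_I] at h2
      norm_num at h2
    · intro v hv h1
      obtain ⟨i, hi⟩ := Function.ne_iff.1 hv
      have h2 : pai n v v = 0 := by rw [h1]; rfl
      rw [pai_apply] at h2
      have h3 : v i * v i = 0 := (Finset.sum_eq_zero_iff_of_nonneg fun i _ =>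
        mul_self_nonneg (v i)).1 h2 i (Finset.mem_univ i)
      exact hi (mul_self_eq_zero.1 h3)
    · have := key w
      simp only [BoundedContinuousFunction.char_apply, four_ex]
      exact this
  have hae : (fun x => ENNReal.ofReal (f x)) =ᵐ[volume] fun x => ENNReal.ofReal (-f x) := by
    have hfin : ∫⁻ x, ENNReal.ofReal (f x) ≠ ⊤ := by
      have := hP.measure_univ_lt_top
      simp only [P, withDensity_apply _ MeasurableSet.univ, Measure.restrict_univ] at this
      exact this.ne
    exact (withDensity_eq_iff hm.aemeasurable hm'.aemeasurable hfin).1 hPP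
  have hae2 : f =ᵐ[volume] fun _ => (0 : ℝ) := by
    filter_upwards [hae] with x hx
    have h1 := congrArg ENNReal.toReal hx
    rw [ENNReal.toReal_ofReal', ENNReal.toReal_ofReal'] at h1
    rcases le_total 0 (f x) with h0 | h0
    · rw [max_eq_left h0, max_eq_right (by linarith)] at h1; exact h1
    · rw [max_eq_right h0, max_eq_left (by linarith)] at h1; linarith
  intro x
  exact congrFun ((Continuous.ae_eq_iff_eq volume hf continuous_const).1 hae2) x

end Vale.Agent.P088.H641.L
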