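import Vale.Agent.P088.H641.EBD

/-!
# P088, two general metrics: the energy estimate
-/

open MeasureTheory Set Filter Topology
open scoped ContDiff Matrix

noncomputable section

namespace Vale.Agent.P088.H641.L

open Vale.Agent.P088.LR Vale.Agent.P088.LR.B Vale.Agent.P088.LR.B.H43 Vale.Agent.P088.H639
  Vale.Agent.P088.H884 Vale.Agent.P088.H109

variable {n : ℕ}

theorem bil_bd {T : Fin n → Fin n → ℝ} {δ : ℝ} (hT : ∀ i j, |T i j| ≤ δ) (hδ : 0 ≤ δ)
    {l : ℝ} (hl : 0 < l) (a b : Fin n → ℝ) :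
    |∑ i, ∑ j, T i j * a i * b j| ≤
      δ * n * (l / 2 * ∑ i, a i ^ 2 + 1 / (2 * l) * ∑ i, b i ^ 2) := by
  have h1 : ∀ x y : ℝ, |x| * |y| ≤ l / 2 * x ^ 2 + 1 / (2 * l) * y ^ 2 := by
    intro x y
    have h2 : 0 ≤ (1 / (2 * l)) * (l * |x| - |y|) ^ 2 := by positivity
    have h3 : (1 / (2 * l)) * (l * |x| - |y|) ^ 2 =
        l / 2 * |x| ^ 2 + 1 / (2 * l) * |y| ^ 2 - |x| * |y| := by
      field_simp
      ring
    rw [sq_abs, sq_abs] at h3
    linarith
  calc |∑ i, ∑ j, T i j * a i * b j| ≤ ∑ i, ∑ j, δ * (l / 2 * a i ^ 2 + 1 / (2 * l) * b j ^ 2) := by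
        refine (Finset.abs_sum_le_sum_abs _ _).trans (Finset.sum_le_sum fun i _ => ?_)
        refine (Finset.abs_sum_le_sum_abs _ _).trans (Finset.sum_le_sum fun j _ => ?_)
        rw [abs_mul, abs_mul, mul_assoc]
        exact mul_le_mul (hT i j) (h1 _ _) (by positivity) hδ
    _ = _ := by
        simp only [← Finset.mul_sum, Finset.sum_add_distrib, Finset.sum_const, Finset.card_univ,
          Fintype.card_fin, nsmul_eq_mul]
        ring

/-- The Dirichlet integral. -/
def DI (Ω : Set (V n)) (U : V n → ℝ) : ℝ := ∫ x in Ω, ∑ i, pd i U x ^ 2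

theorem intO {Ω : Set (V n)} (hb : Bornology.IsBounded Ω) {f : V n → ℝ} (hf : Continuous f) :
    IntegrableOn f Ω :=
  (hf.continuousOn.integrableOn_compact hb.isCompact_closure).mono_set subset_closure

theorem pdc {U : V n → ℝ} (hU : ContDiff ℝ ∞ U) (i : Fin n) : Continuous fun x => pd i U x := by
  unfold pd
  exact (hU.continuous_fderiv (by simp)).clm_apply continuous_const

theorem dic {U : V n → ℝ} (hU : ContDiff ℝ ∞ U) : Continuous fun x => ∑ i, pd i U x ^ 2 :=
  continuous_finsetSum _ fun i _ => (pdc hU i).pow 2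

theorem qc {s : MF n} (hs : ∀ i j, Continuous fun x => s x i j) {U W : V n → ℝ}
    (hU : ContDiff ℝ ∞ U) (hW : ContDiff ℝ ∞ W) :
    Continuous fun x => ∑ i, ∑ j, s x i j * pd i U x * pd j W x :=
  continuous_finsetSum _ fun i _ => continuous_finsetSum _ fun j _ =>
    ((hs i j).mul (pdc hU i)).mul (pdc hW j)

/-- coercivity with the cross term, pointwise -/
theorem pt1 {S : Matrix (Fin n) (Fin n) ℝ} {c δ : ℝ} (hδ : 0 ≤ δ) (hcd : c = n * δ) (hc0 : 0 < c)
    (hc : c ≤ 1 / 4) (hS : ∀ i j, |S i j - dl i j| ≤ δ) (a b : Fin n → ℝ) :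
    1 / 2 * ∑ i, b i ^ 2 - 4 * c ^ 2 * ∑ i, a i ^ 2 ≤
      2 * ∑ i, ∑ j, (S i j - dl i j) * a i * b j + ∑ i, ∑ j, S i j * b i * b j := by
  have h1 := (abs_le.1 (bil_bd (T := fun i j => S i j - dl i j) hS hδ (l := 4 * c)
    (by positivity) a b)).1
  have h2 := (abs_le.1 (bil_bd (T := fun i j => S i j - dl i j) hS hδ (l := 1) one_pos b b)).1
  have h3 : ∑ i, ∑ j, S i j * b i * b j = ∑ i, ∑ j, (S i j - dl i j) * b i * b j +
      ∑ i, b i ^ 2 := by
    have h4 : ∑ i, b i ^ 2 = ∑ i, ∑ j, dl i j * b i * b j := by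
      refine Finset.sum_congr rfl fun i _ => ?_
      rw [Finset.sum_eq_single i]
      · rw [dl, Matrix.one_apply_eq]; ring
      · intro j _ hj
        rw [dl, Matrix.one_apply_ne (Ne.symm hj)]; ring
      · intro h; exact absurd (Finset.mem_univ i) h
    rw [h4, ← Finset.sum_add_distrib]
    refine Finset.sum_congr rfl fun i _ => ?_
    rw [← Finset.sum_add_distrib]
    exact Finset.sum_congr rfl fun j _ => by ring
  set A := ∑ i, a i ^ 2
  set B := ∑ i, b i ^ 2
  have hA : 0 ≤ A := Finset.sum_nonneg fun i _ => sq_nonneg _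
  have hB : 0 ≤ B := Finset.sum_nonneg fun i _ => sq_nonneg _
  have e1 : δ * n * (4 * c / 2 * A + 1 / (2 * (4 * c)) * B) = 2 * c ^ 2 * A + 1 / 8 * B := by
    rw [show δ * n = c by rw [hcd]; ring]
    field_simp
    ring
  have e2 : δ * n * (1 / 2 * B + 1 / (2 * 1) * B) = c * B := by
    rw [show δ * n = c by rw [hcd]; ring]
    ring
  rw [e1] at h1
  rw [e2] at h2
  rw [h3]
  have h5 : c * B ≤ 1 / 4 * B := mul_le_mul_of_nonneg_right hc hB
  linarith

theorem pt2 {h : Fin n → Fin n → ℝ} {M c : ℝ} (hM0 : 0 ≤ M) (hM : ∀ i j, |h i j| ≤ M)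
    (hc : 0 < c) (hs : ∀ i j, h i j = h j i) (a b : Fin n → ℝ) :
    ∑ i, ∑ j, h i j * (a i + b i) * (a j + b j) ≤ ∑ i, ∑ j, h i j * a i * a j +
      M * n * (c * ∑ i, a i ^ 2 + (1 / c + 1) * ∑ i, b i ^ 2) := by
  have h1 := (abs_le.1 (bil_bd hM hM0 hc a b)).2
  have h2 := (abs_le.1 (bil_bd hM hM0 (l := 1) one_pos b b)).2
  have h0 : ∑ i, ∑ j, h i j * b i * a j = ∑ i, ∑ j, h i j * a i * b j := by
    rw [Finset.sum_comm]
    refine Finset.sum_congr rfl fun j _ => Finset.sum_congr rfl fun i _ => ?_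
    rw [hs i j]
    ring
  have h3 : ∑ i, ∑ j, h i j * (a i + b i) * (a j + b j) = ∑ i, ∑ j, h i j * a i * a j +
      2 * ∑ i, ∑ j, h i j * a i * b j + ∑ i, ∑ j, h i j * b i * b j := by
    have h4 : ∑ i, ∑ j, h i j * (a i + b i) * (a j + b j) = ∑ i, ∑ j, h i j * a i * a j +
        ∑ i, ∑ j, h i j * a i * b j + ∑ i, ∑ j, h i j * b i * a j +
        ∑ i, ∑ j, h i j * b i * b j := by
      simp only [← Finset.sum_add_distrib]
      exact Finset.sum_congr rfl fun i _ => Finset.sum_congr rfl fun j _ => by ring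
    rw [h4, h0]
    ring
  set A := ∑ i, a i ^ 2
  set B := ∑ i, b i ^ 2
  have e1 : 2 * (M * n * (c / 2 * A + 1 / (2 * c) * B)) + M * n * (1 / 2 * B + 1 / (2 * 1) * B) =
      M * n * (c * A + (1 / c + 1) * B) := by
    field_simp
    ring
  rw [h3, ← e1]
  linarith

/-- **The energy estimate**: `s`, `t` near `1` with the same energies, `U` harmonic. -/
theorem lower {Ω : Set (V n)} (hO : IsOpen Ω) (hb : Bornology.IsBounded Ω) {s t : MF n}
    (hs : ∀ i j, Continuous fun x => s x i j) (ht : ∀ i j, Continuous fun x => t x i j)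
    (hss : ∀ x, (s x).IsSymm) (hts : ∀ x, (t x).IsSymm)
    (htp : ∀ x, (t x).PosSemidef) {δ M : ℝ} (hn : 0 < n) (hδ : 0 < δ) (hc : n * δ ≤ 1 / 4)
    (h1 : ∀ x ∈ Ω, ∀ i j, |s x i j - dl i j| ≤ δ) (hM0 : 0 ≤ M)
    (hM : ∀ x ∈ Ω, ∀ i j, |t x i j - s x i j| ≤ M) {U : V n → ℝ}
    (hU : Sl Ω (fun _ => 1) U) (hE : En Ω s U = En Ω t U) :
    -(11 * M * n * (n * δ) * DI Ω U) ≤ rb Ω (fun x => t x - s x) U U := by
  have hn0 : (0 : ℝ) < n := by exact_mod_cast hn
  set c : ℝ := n * δ with hcd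
  have hc0 : 0 < c := by positivity
  have hD0 : 0 ≤ DI Ω U := setIntegral_nonneg hO.measurableSet fun x _ =>
    Finset.sum_nonneg fun i _ => sq_nonneg _
  -- the bound for every `η`
  have hη : ∀ η > 0, -(11 * M * n * c * DI Ω U) ≤ rb Ω (fun x => t x - s x) U U +
      (1 + M * n * (1 / c + 1) * 2) * η := by
    intro η hη
    have hne : {e | ∃ u : V n → ℝ, ContDiff ℝ ∞ u ∧ (∀ x ∈ frontier Ω, u x = U x) ∧
        e = rb Ω s u u}.Nonempty := ⟨_, U, hU.1, fun _ _ => rfl, rfl⟩
    obtain ⟨e, ⟨u, hu, huU, rfl⟩, he⟩ := exists_lt_of_csInf_lt hne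
      (show En Ω s U < En Ω s U + η by linarith)
    set w : V n → ℝ := fun y => u y + (-1) * U y with hw
    have hws : ContDiff ℝ ∞ w := hu.add (contDiff_const.mul hU.1)
    have h1c : ∀ i j : Fin n, Continuous fun _ : V n => (1 : Matrix (Fin n) (Fin n) ℝ) i j :=
      fun i j => continuous_const
    have hw0 : rb Ω (fun _ => 1) U w = 0 := hU.2 _ hws fun x hx => by
      simp only [hw]
      rw [huU x hx]
      ring
    have e0 : u = fun y => U y + w y := by funext y; simp only [hw]; ring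
    have hsd : ∀ i j, Continuous fun x => (fun x => s x - 1 : MF n) x i j := fun i j =>
      (hs i j).sub continuous_const
    have hhc : ∀ i j, Continuous fun x => (fun x => t x - s x : MF n) x i j := fun i j =>
      (ht i j).sub (hs i j)
    -- `rb s u u`
    have e1 : rb Ω s u u = rb Ω s U U + (2 * rb Ω (fun x => s x - 1) U w + rb Ω s w w) := by
      have h2 : rb Ω (fun x => s x - 1) U w = rb Ω s U w - rb Ω (fun _ => 1) U w :=
        rb_subx hb h1c hs hU.1 hws
      rw [h2, hw0, sub_zero, e0, rb_sq_add hb hs hss hU.1 hws]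
      ring
    -- the value at `U`
    have hup : En Ω s U ≤ rb Ω s U U := by
      refine csInf_le ⟨0, ?_⟩ ⟨U, hU.1, fun _ _ => rfl, rfl⟩
      rintro e ⟨v, hv, _, rfl⟩
      refine setIntegral_nonneg hO.measurableSet fun x hx => ?_
      have h3 := pt1 hδ.le hcd hc0 hc (h1 x hx) (fun _ => 0) (fun i => pd i v x)
      have h4 : 0 ≤ ∑ i, pd i v x ^ 2 := Finset.sum_nonneg fun i _ => sq_nonneg _
      simp only [mul_zero, zero_mul, Finset.sum_const_zero, zero_add, ne_eq, OfNat.ofNat_ne_zero,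
        not_false_eq_true, zero_pow, sub_zero] at h3
      linarith
    -- the Dirichlet integral of `w`
    have hW : 1 / 2 * DI Ω w - 4 * c ^ 2 * DI Ω U ≤
        2 * rb Ω (fun x => s x - 1) U w + rb Ω s w w := by
      unfold DI rb
      rw [← integral_const_mul, ← integral_const_mul, ← integral_const_mul,
        ← integral_sub ((intO hb (dic hws)).const_mul _) ((intO hb (dic hU.1)).const_mul _),
        ← integral_add ((intO hb (qc hsd hU.1 hws)).const_mul _) (intO hb (qc hs hws hws))]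
      refine setIntegral_mono_on
        (((intO hb (dic hws)).const_mul _).sub ((intO hb (dic hU.1)).const_mul _))
        (((intO hb (qc hsd hU.1 hws)).const_mul _).add (intO hb (qc hs hws hws)))
        hO.measurableSet fun x hx => ?_
      exact pt1 hδ.le hcd hc0 hc (h1 x hx) (fun i => pd i U x) (fun i => pd i w x)
    have hW2 : DI Ω w ≤ 2 * η + 8 * c ^ 2 * DI Ω U := by linarith
    -- `rb (t - s) u u`
    have hh : rb Ω (fun x => t x - s x) u u ≤ rb Ω (fun x => t x - s x) U U +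
        M * n * (c * DI Ω U + (1 / c + 1) * DI Ω w) := by
      have hpu : ∀ x i, pd i u x = pd i U x + pd i w x := by
        intro x i
        rw [e0]
        unfold pd
        rw [fderiv_fun_add (hU.1.differentiable (by simp) x) (hws.differentiable (by simp) x)]
        rfl
      have i3 : IntegrableOn (fun x => M * n * (c * ∑ i, pd i U x ^ 2 +
          (1 / c + 1) * ∑ i, pd i w x ^ 2)) Ω :=
        intO hb (continuous_const.mul ((continuous_const.mul (dic hU.1)).add
          (continuous_const.mul (dic hws))))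
      have e3 : M * n * (c * DI Ω U + (1 / c + 1) * DI Ω w) = ∫ x in Ω, M * n *
          (c * ∑ i, pd i U x ^ 2 + (1 / c + 1) * ∑ i, pd i w x ^ 2) := by
        unfold DI
        rw [← integral_const_mul, ← integral_const_mul,
          ← integral_add ((intO hb (dic hU.1)).const_mul _) ((intO hb (dic hws)).const_mul _),
          ← integral_const_mul]
      rw [e3]
      unfold rb
      rw [← integral_add (intO hb (qc hhc hU.1 hU.1)) i3]
      refine setIntegral_mono_on (intO hb (qc hhc hu hu))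
        ((intO hb (qc hhc hU.1 hU.1)).add i3) hO.measurableSet fun x hx => ?_
      simp only [hpu]
      refine pt2 (h := fun i j => (t x - s x) i j) hM0 (hM x hx) hc0 (fun i j => ?_) _ _
      exact ((hts x).sub (hss x)).apply j i
    have hlow : En Ω t U ≤ rb Ω t u u := csInf_le (En_bdd htp _) ⟨u, hu, huU, rfl⟩
    have e2 : rb Ω (fun x => t x - s x) u u = rb Ω t u u - rb Ω s u u := rb_subx hb hs ht hu hu
    have hMn : 0 ≤ M * n := by positivity
    have h5 : M * n * (c * DI Ω U + (1 / c + 1) * DI Ω w) ≤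
        M * n * (c * DI Ω U + (1 / c + 1) * (2 * η + 8 * c ^ 2 * DI Ω U)) := by
      gcongr
    have h6 : M * n * (c * DI Ω U + (1 / c + 1) * (2 * η + 8 * c ^ 2 * DI Ω U)) =
        M * n * (1 / c + 1) * 2 * η + M * n * c * DI Ω U * (9 + 8 * c) := by
      field_simp
      ring
    have h7 : M * n * c * DI Ω U * (9 + 8 * c) ≤ M * n * c * DI Ω U * 11 := by
      have : 0 ≤ M * n * c * DI Ω U := by positivity
      gcongr
      linarith
    rw [h6] at h5
    linarith
  -- `η → 0`
  refine le_of_forall_pos_le_add fun θ hθ => ?_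
  have hκ : 0 < 1 + M * n * (1 / c + 1) * 2 := by positivity
  have := hη (θ / (1 + M * n * (1 / c + 1) * 2)) (by positivity)
  rwa [mul_div_cancel₀ _ hκ.ne'] at this

end Vale.Agent.P088.H641.L
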