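import Vale.Agent.P088.H641.L.A
import Vale.Agent.P088.H641.L.B
import Vale.Agent.P088.H127.Ins
import Vale.Agent.P088.H129.Core

/-!
# P088, two general metrics: the linear problem
-/

open MeasureTheory Set Filter Topology
open scoped ContDiff Matrix

noncomputable section

namespace Vale.Agent.P088.H641.L

open Vale.Agent.P088.LR Vale.Agent.P088.LR.B Vale.Agent.P088.LR.B.H43 Vale.Agent.P088.H639
  Vale.Agent.P088.H884 Vale.Agent.P088.H109
open Vale.Agent.P088.H776 (ex_contDiff ex_pd ex_norm)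
open Vale.Agent.P088.LR.H127 (exw pd_exw dv_exw exw_contDiff)

variable {n : ℕ}

theorem one_sm : SmM (fun _ => 1 : MF n) := fun _ _ => contDiff_const

theorem one_sy (x : V n) : ((fun _ => 1 : MF n) x).IsSymm := Matrix.isSymm_one

theorem one_c (i j : Fin n) : Continuous fun x => (fun _ => 1 : MF n) x i j := continuous_const

theorem pol {Ω : Set (V n)} (hb : Bornology.IsBounded Ω) {s : MF n}
    (hs : ∀ i j, Continuous fun x => s x i j) (hsy : ∀ x, (s x).IsSymm)
    (h : ∀ u, Sl Ω (fun _ => 1) u → rb Ω s u u = 0) {u v : V n → ℝ}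
    (hu : Sl Ω (fun _ => 1) u) (hv : Sl Ω (fun _ => 1) v) : rb Ω s u v = 0 := by
  have huv : Sl Ω (fun _ => 1) (fun y => u y + v y) :=
    ⟨hu.1.add hv.1, fun φ hφ h0 => by
      rw [rb_add_left hb one_c hu.1 hv.1 hφ, hu.2 φ hφ h0, hv.2 φ hφ h0, add_zero]⟩
  have h1 := rb_sq_add hb hs hsy hu.1 hv.1
  rw [h _ huv, h _ hu, h _ hv] at h1
  linarith

theorem polc {Ω : Set (V n)} (hO : IsOpen Ω) (hb : Bornology.IsBounded Ω) {s : MF n}
    (hs : ∀ i j, Continuous fun x => s x i j) (hsy : ∀ x, (s x).IsSymm)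
    (h : ∀ u, Sl Ω (fun _ => 1) u → rb Ω s u u = 0) {U W : V n → ℂ} (hU : ContDiff ℝ ∞ U)
    (hW : ContDiff ℝ ∞ W) (hU0 : ∀ x, dv (fun _ => 1) U x = 0)
    (hW0 : ∀ x, dv (fun _ => 1) W x = 0) : bl Ω s U W = 0 := by
  have a1 : ∀ {Z : V n → ℂ}, ContDiff ℝ ∞ Z → (∀ x, dv (fun _ => 1) Z x = 0) →
      Sl Ω (fun _ => 1) (rp Z) ∧ Sl Ω (fun _ => 1) (mp Z) := fun {Z} hZ h0 =>
    ⟨Sl_of_dv Vale.Agent.P088.LR.weak hO hb one_sm one_sy (rp_contDiff hZ)
      fun x hx => by rw [(dv_parts one_sm hZ x).1, h0 x]; simp,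
    Sl_of_dv Vale.Agent.P088.LR.weak hO hb one_sm one_sy (mp_contDiff hZ)
      fun x hx => by rw [(dv_parts one_sm hZ x).2, h0 x]; simp⟩
  obtain ⟨u1, u2⟩ := a1 hU hU0
  obtain ⟨w1, w2⟩ := a1 hW hW0
  rw [bl_re hb hs hU hW, pol hb hs hsy h u1 w1, pol hb hs hsy h u2 w2, pol hb hs hsy h u1 w2,
    pol hb hs hsy h u2 w1]
  simp

/-- The Fourier transform of a derivative. -/
theorem ft_pd' {f : V n → ℂ} (hf : ContDiff ℝ ∞ f) (hc : HasCompactSupport f) (ξ : V n)
    (j : Fin n) : ft (pd j f) ξ = 2 * Real.pi * Complex.I * (ξ j : ℂ) * ft f ξ := by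
  have hc' : HasCompactSupport (pd j f) := hc.fderiv_apply (𝕜 := ℝ) (v := Pi.single j 1)
  have he := ex_contDiff (-ξ)
  have hep : Continuous (pd j (ex (-ξ))) := (H776.pd_contDiff he j).continuous
  have h1 := integral_mul_fderiv_eq_neg_fderiv_mul_of_integrable (μ := (volume : Measure (V n)))
    (f := f) (g := ex (-ξ)) (v := Pi.single j 1)
    (((H776.pd_contDiff hf j).continuous.mul he.continuous).integrable_of_hasCompactSupport
      hc'.mul_right)
    ((hf.continuous.mul hep).integrable_of_hasCompactSupport hc.mul_right)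
    ((hf.continuous.mul he.continuous).integrable_of_hasCompactSupport hc.mul_right)
    (fun x _ => (hf.differentiable (by simp)) x) (fun x _ => (he.differentiable (by simp)) x)
  have h2 : ft (pd j f) ξ = -∫ x, f x * pd j (ex (-ξ)) x := by
    unfold ft
    have h3 : ∫ x, f x * pd j (ex (-ξ)) x = -∫ x, pd j f x * ex (-ξ) x := h1
    rw [h3, neg_neg]
  have h3 : (fun x => f x * pd j (ex (-ξ)) x) =
      fun x => (-(2 * Real.pi * Complex.I * (ξ j : ℂ))) * (f x * ex (-ξ) x) := by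
    funext x
    rw [ex_pd, Pi.neg_apply]
    push_cast
    ring
  rw [h2, h3, integral_const_mul]
  unfold ft
  ring

section lin

variable {s : MF n}

/-- the entries as complex functions -/
def ce (s : MF n) (i j : Fin n) (x : V n) : ℂ := ((s x i j : ℝ) : ℂ)

theorem quad0 {Ω : Set (V n)} (hO : IsOpen Ω) (hb : Bornology.IsBounded Ω)
    (hs : ∀ i j, Continuous fun x => s x i j) (hsy : ∀ x, (s x).IsSymm)
    (h : ∀ u, Sl Ω (fun _ => 1) u → rb Ω s u u = 0) (h0 : ∀ x ∉ Ω, s x = 0)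
    (hd : ∀ (ξ : V n) j, ∑ i, (ξ i : ℂ) * ft (ce s i j) ξ = 0) {ξ η : V n}
    (h1 : ∑ j, η j * ξ j = 0) (h2 : ∑ j, η j ^ 2 = ∑ j, ξ j ^ 2) :
    ∑ i, ∑ j, (η i : ℂ) * η j * ft (ce s i j) ξ = 0 := by
  set zU : Fin n → ℂ := fun j => (Real.pi : ℂ) * ((η j : ℂ) - Complex.I * ξ j) with hzU
  set zW : Fin n → ℂ := fun j => (Real.pi : ℂ) * (-(η j : ℂ) - Complex.I * ξ j) with hzW
  have q1 : ∑ j, zU j ^ 2 = 0 := by
    have e : ∑ j, zU j ^ 2 = (Real.pi : ℂ) ^ 2 * (((∑ j, η j ^ 2 - ∑ j, ξ j ^ 2 : ℝ) : ℂ) -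
        2 * Complex.I * ((∑ j, η j * ξ j : ℝ) : ℂ)) := by
      push_cast
      rw [mul_sub, mul_sub, Finset.mul_sum, Finset.mul_sum, Finset.mul_sum, Finset.mul_sum,
        ← Finset.sum_sub_distrib, ← Finset.sum_sub_distrib]
      refine Finset.sum_congr rfl fun j _ => ?_
      simp only [hzU]
      linear_combination ((Real.pi : ℂ) ^ 2 * (ξ j : ℂ) ^ 2) * Complex.I_sq
    rw [e, h1, h2]
    simp
  have q2 : ∑ j, zW j ^ 2 = 0 := by
    have e : ∑ j, zW j ^ 2 = (Real.pi : ℂ) ^ 2 * (((∑ j, η j ^ 2 - ∑ j, ξ j ^ 2 : ℝ) : ℂ) +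
        2 * Complex.I * ((∑ j, η j * ξ j : ℝ) : ℂ)) := by
      push_cast
      rw [mul_add, mul_sub, Finset.mul_sum, Finset.mul_sum, Finset.mul_sum, Finset.mul_sum,
        ← Finset.sum_sub_distrib, ← Finset.sum_add_distrib]
      refine Finset.sum_congr rfl fun j _ => ?_
      simp only [hzW]
      linear_combination ((Real.pi : ℂ) ^ 2 * (ξ j : ℂ) ^ 2) * Complex.I_sq
    rw [e, h1, h2]
    simp
  have hbl := polc hO hb hs hsy h (exw_contDiff zU) (exw_contDiff zW) (dv_exw zU q1)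
    (dv_exw zW q2)
  have hmul : ∀ x, exw zU x * exw zW x = ex (-ξ) x := by
    intro x
    rw [exw, exw, ex, ← Complex.exp_add]
    congr 1
    rw [← Finset.sum_add_distrib]
    push_cast
    rw [Finset.mul_sum]
    refine Finset.sum_congr rfl fun j _ => ?_
    simp only [hzU, hzW, Pi.neg_apply]
    push_cast
    ring
  have hcs : ∀ i j, HasCompactSupport (ce s i j) := fun i j => by
    refine HasCompactSupport.of_support_subset_isCompact hb.isCompact_closure ?_
    intro x hx
    by_contra hc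
    refine hx ?_
    have hx' : x ∉ Ω := fun h' => hc (subset_closure h')
    simp [ce, h0 x hx']
  have hcc : ∀ i j, Continuous (ce s i j) := fun i j => Complex.continuous_ofReal.comp (hs i j)
  have hint : ∀ i j, Integrable fun x => ce s i j x * ex (-ξ) x := fun i j =>
    ((hcc i j).mul (ex_contDiff _).continuous).integrable_of_hasCompactSupport
      (hcs i j).mul_right
  have hbl2 : bl Ω s (exw zU) (exw zW) = ∑ i, ∑ j, zU i * zW j * ft (ce s i j) ξ := by
    have h5 : bl Ω s (exw zU) (exw zW) =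
        ∫ x in Ω, ∑ i, ∑ j, zU i * zW j * (ce s i j x * ex (-ξ) x) := by
      rw [bl]
      refine integral_congr_ae (Eventually.of_forall fun x => ?_)
      refine Finset.sum_congr rfl fun i _ => Finset.sum_congr rfl fun j _ => ?_
      simp only [pd_exw, ← hmul x, ce]
      ring
    rw [h5, setIntegral_eq_integral_of_forall_compl_eq_zero, integral_finsetSum]
    · refine Finset.sum_congr rfl fun i _ => ?_
      rw [integral_finsetSum _ fun j _ => (hint i j).const_mul _]
      exact Finset.sum_congr rfl fun j _ => by rw [integral_const_mul, ft]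
    · exact fun i _ => integrable_finsetSum _ fun j _ => (hint i j).const_mul _
    · intro x hx
      refine Finset.sum_eq_zero fun i _ => Finset.sum_eq_zero fun j _ => ?_
      simp [ce, h0 x hx]
  rw [hbl2] at hbl
  have hsf : ∀ i j, ft (ce s i j) ξ = ft (ce s j i) ξ := fun i j => by
    have : ce s i j = ce s j i := by
      funext x
      simp only [ce, (hsy x).apply j i]
    rw [this]
  have hd' : ∀ i, ∑ j, (ξ j : ℂ) * ft (ce s i j) ξ = 0 := fun i => by
    rw [← hd ξ i]
    exact Finset.sum_congr rfl fun j _ => by rw [hsf i j]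
  have e1 : ∀ i, ∑ j, zW j * ft (ce s i j) ξ =
      -(Real.pi : ℂ) * ∑ j, (η j : ℂ) * ft (ce s i j) ξ := by
    intro i
    have : ∑ j, zW j * ft (ce s i j) ξ = -(Real.pi : ℂ) * ∑ j, (η j : ℂ) * ft (ce s i j) ξ -
        Real.pi * Complex.I * ∑ j, (ξ j : ℂ) * ft (ce s i j) ξ := by
      rw [Finset.mul_sum, Finset.mul_sum, ← Finset.sum_sub_distrib]
      refine Finset.sum_congr rfl fun j _ => ?_
      simp only [hzW]
      ring
    rw [this, hd' i, mul_zero, sub_zero]
  have e2 : ∑ i, ∑ j, zU i * zW j * ft (ce s i j) ξ = -(Real.pi : ℂ) ^ 2 *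
      ∑ i, ∑ j, (η i : ℂ) * η j * ft (ce s i j) ξ + (Real.pi : ℂ) ^ 2 * Complex.I *
      ∑ j, (η j : ℂ) * ∑ i, (ξ i : ℂ) * ft (ce s i j) ξ := by
    have e3 : ∑ i, ∑ j, zU i * zW j * ft (ce s i j) ξ =
        ∑ i, zU i * (-(Real.pi : ℂ) * ∑ j, (η j : ℂ) * ft (ce s i j) ξ) := by
      refine Finset.sum_congr rfl fun i _ => ?_
      rw [← e1 i, Finset.mul_sum]
      exact Finset.sum_congr rfl fun j _ => by ring
    have e4 : ∑ j, (η j : ℂ) * ∑ i, (ξ i : ℂ) * ft (ce s i j) ξ =
        ∑ i, (ξ i : ℂ) * ∑ j, (η j : ℂ) * ft (ce s i j) ξ := by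
      simp only [Finset.mul_sum]
      rw [Finset.sum_comm]
      exact Finset.sum_congr rfl fun i _ => Finset.sum_congr rfl fun j _ => by ring
    have e5 : ∑ i, ∑ j, (η i : ℂ) * η j * ft (ce s i j) ξ =
        ∑ i, (η i : ℂ) * ∑ j, (η j : ℂ) * ft (ce s i j) ξ := by
      refine Finset.sum_congr rfl fun i _ => ?_
      rw [Finset.mul_sum]
      exact Finset.sum_congr rfl fun j _ => by ring
    rw [e3, e4, e5, Finset.mul_sum, Finset.mul_sum, ← Finset.sum_add_distrib]
    refine Finset.sum_congr rfl fun i _ => ?_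
    simp only [hzU]
    ring
  have e6 : ∑ j, (η j : ℂ) * ∑ i, (ξ i : ℂ) * ft (ce s i j) ξ = 0 :=
    Finset.sum_eq_zero fun j _ => by rw [hd ξ j, mul_zero]
  rw [e2, e6, mul_zero, add_zero] at hbl
  have hpi : (Real.pi : ℂ) ≠ 0 := by exact_mod_cast Real.pi_ne_zero
  rcases mul_eq_zero.1 hbl with h3 | h3
  · exact absurd h3 (neg_ne_zero.2 (pow_ne_zero _ hpi))
  · exact h3

theorem lin {Ω : Set (V n)} (hn : 0 < n) (hO : IsOpen Ω) (hb : Bornology.IsBounded Ω)
    (hs : ∀ i j, Continuous fun x => s x i j) (hsy : ∀ x, (s x).IsSymm)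
    (h : ∀ u, Sl Ω (fun _ => 1) u → rb Ω s u u = 0) (h0 : ∀ x ∉ Ω, s x = 0)
    (hd : ∀ (ξ : V n) j, ∑ i, (ξ i : ℂ) * ft (ce s i j) ξ = 0) : ∀ x i j, s x i j = 0 := by
  have hsf : ∀ (ξ : V n) i j, ft (ce s i j) ξ = ft (ce s j i) ξ := fun ξ i j => by
    have : ce s i j = ce s j i := by
      funext x
      simp only [ce, (hsy x).apply j i]
    rw [this]
  have hd' : ∀ (ξ : V n) i, ∑ j, (ξ j : ℂ) * ft (ce s i j) ξ = 0 := fun ξ i => by
    rw [← hd ξ i]
    exact Finset.sum_congr rfl fun j _ => by rw [hsf ξ i j]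
  have hcs : ∀ i j, HasCompactSupport fun x => s x i j := fun i j => by
    refine HasCompactSupport.of_support_subset_isCompact hb.isCompact_closure ?_
    intro x hx
    by_contra hc
    refine hx ?_
    have hx' : x ∉ Ω := fun h' => hc (subset_closure h')
    simp [h0 x hx']
  -- orthogonal vectors
  have k1 : ∀ ξ η : V n, ∑ j, η j * ξ j = 0 →
      ∑ i, ∑ j, (η i : ℂ) * η j * ft (ce s i j) ξ = 0 := by
    intro ξ η hηξ
    by_cases hη : ∑ j, η j ^ 2 = 0
    · have hz : ∀ j, η j = 0 := fun j => pow_eq_zero_iff two_ne_zero |>.1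
        ((Finset.sum_eq_zero_iff_of_nonneg fun i _ => sq_nonneg (η i)).1 hη j (Finset.mem_univ j))
      exact Finset.sum_eq_zero fun i _ => Finset.sum_eq_zero fun j _ => by rw [hz i]; simp
    by_cases hξ : ∑ j, ξ j ^ 2 = 0
    · have hz : ∀ j, ξ j = 0 := fun j => pow_eq_zero_iff two_ne_zero |>.1
        ((Finset.sum_eq_zero_iff_of_nonneg fun i _ => sq_nonneg (ξ i)).1 hξ j (Finset.mem_univ j))
      -- `ξ = 0`: by continuity along the line `t ↦ t η'`, done below
      have hξ0 : ξ = 0 := funext hz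
      subst hξ0
      obtain ⟨i₀, -⟩ : ∃ i₀ : Fin n, True := ⟨⟨0, hn⟩, trivial⟩
      -- every entry has mean zero
      have hm : ∀ i j, ft (ce s i j) 0 = 0 := by
        intro i j
        have hcont : Continuous (ft (ce s i j)) := H129.continuous_ft
          (Complex.continuous_ofReal.comp (hs i j)) ((hcs i j).comp_left (g := fun t : ℝ =>
            (t : ℂ)) (by simp))
        have hg : Continuous fun t : ℝ => ft (ce s i j) (Pi.single i t) :=
          hcont.comp (continuous_pi fun l => by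
            rcases eq_or_ne l i with h | h
            · subst h
              simp only [Pi.single_eq_same]
              exact continuous_id
            · simpa [Pi.single_eq_of_ne h] using continuous_const)
        have hz : ∀ t ∈ ({0}ᶜ : Set ℝ), ft (ce s i j) (Pi.single i t) = (fun _ => (0 : ℂ)) t := by
          intro t ht
          have ht' : t ≠ 0 := ht
          have h := hd (Pi.single i t) j
          rw [Finset.sum_eq_single i] at h
          · rw [Pi.single_eq_same] at h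
            rcases mul_eq_zero.1 h with h | h
            · exact absurd (Complex.ofReal_eq_zero.1 h) ht'
            · exact h
          · intro b _ hb
            rw [Pi.single_eq_of_ne hb]
            simp
          · intro h
            exact absurd (Finset.mem_univ i) h
        have h := Continuous.ext_on (dense_compl_singleton (0 : ℝ)) hg continuous_const hz
        have h0 := congrFun h 0
        simpa using h0
      exact Finset.sum_eq_zero fun i _ => Finset.sum_eq_zero fun j _ => by rw [hm i j, mul_zero]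
    have hη0 : 0 < ∑ j, η j ^ 2 := lt_of_le_of_ne
      (Finset.sum_nonneg fun j _ => sq_nonneg _) (Ne.symm hη)
    have hξ0 : 0 < ∑ j, ξ j ^ 2 := lt_of_le_of_ne
      (Finset.sum_nonneg fun j _ => sq_nonneg _) (Ne.symm hξ)
    set l : ℝ := √((∑ j, ξ j ^ 2) / ∑ j, η j ^ 2) with hl
    have hl2 : l ^ 2 = (∑ j, ξ j ^ 2) / ∑ j, η j ^ 2 := Real.sq_sqrt (by positivity)
    have hl0 : l ≠ 0 := (Real.sqrt_pos.2 (by positivity)).ne'
    have h3 := quad0 hO hb hs hsy h h0 hd (ξ := ξ) (η := fun j => l * η j)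
      (by
        have : ∀ j, l * η j * ξ j = l * (η j * ξ j) := fun j => by ring
        simp only [this, ← Finset.mul_sum, hηξ, mul_zero])
      (by
        simp only [mul_pow, ← Finset.mul_sum, hl2]
        exact div_mul_cancel₀ _ hη)
    have h4 : ∑ i, ∑ j, ((l * η i : ℝ) : ℂ) * ((l * η j : ℝ) : ℂ) * ft (ce s i j) ξ =
        (l : ℂ) ^ 2 * ∑ i, ∑ j, (η i : ℂ) * η j * ft (ce s i j) ξ := by
      rw [Finset.mul_sum]
      refine Finset.sum_congr rfl fun i _ => ?_
      rw [Finset.mul_sum]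
      refine Finset.sum_congr rfl fun j _ => ?_
      push_cast
      ring
    rw [h4] at h3
    rcases mul_eq_zero.1 h3 with h5 | h5
    · exact absurd h5 (pow_ne_zero _ (by exact_mod_cast hl0))
    · exact h5
  -- all vectors
  have k2 : ∀ ξ v : V n, ∑ i, ∑ j, (v i : ℂ) * v j * ft (ce s i j) ξ = 0 := by
    intro ξ v
    by_cases hξ : ∑ j, ξ j ^ 2 = 0
    · have hz : ∀ j, ξ j = 0 := fun j => pow_eq_zero_iff two_ne_zero |>.1
        ((Finset.sum_eq_zero_iff_of_nonneg fun i _ => sq_nonneg (ξ i)).1 hξ j (Finset.mem_univ j))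
      exact k1 ξ v (Finset.sum_eq_zero fun j _ => by rw [hz j, mul_zero])
    set c : ℝ := (∑ j, v j * ξ j) / ∑ j, ξ j ^ 2 with hc
    have h3 := k1 ξ (fun j => v j - c * ξ j) (by
      have : ∀ j, (v j - c * ξ j) * ξ j = v j * ξ j - c * ξ j ^ 2 := fun j => by ring
      simp only [this, Finset.sum_sub_distrib, ← Finset.mul_sum]
      rw [hc, div_mul_cancel₀ _ hξ, sub_self])
    have h4 : ∑ i, ∑ j, ((v i - c * ξ i : ℝ) : ℂ) * ((v j - c * ξ j : ℝ) : ℂ) *
        ft (ce s i j) ξ = ∑ i, ∑ j, (v i : ℂ) * v j * ft (ce s i j) ξ -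
        (c : ℂ) * ∑ j, ((v j - c * ξ j : ℝ) : ℂ) * ∑ i, (ξ i : ℂ) * ft (ce s i j) ξ -
        (c : ℂ) * ∑ i, (v i : ℂ) * ∑ j, (ξ j : ℂ) * ft (ce s i j) ξ := by
      have e1 : ∑ j, ((v j - c * ξ j : ℝ) : ℂ) * ∑ i, (ξ i : ℂ) * ft (ce s i j) ξ =
          ∑ i, ∑ j, ((v j - c * ξ j : ℝ) : ℂ) * ((ξ i : ℂ) * ft (ce s i j) ξ) := by
        simp only [Finset.mul_sum]
        exact Finset.sum_comm
      rw [e1]
      simp only [Finset.mul_sum, ← Finset.sum_sub_distrib]
      refine Finset.sum_congr rfl fun i _ => Finset.sum_congr rfl fun j _ => ?_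
      push_cast
      ring
    rw [h4] at h3
    simp only [hd, hd', mul_zero, Finset.sum_const_zero, sub_zero] at h3
    exact h3
  have k3 : ∀ (ξ : V n) a b, ft (ce s a b) ξ = 0 := by
    intro ξ a b
    have e : ∀ c d : Fin n, ∑ i, ∑ j, ((Pi.single (M := fun _ => ℝ) c 1 i : ℝ) : ℂ) *
        ((Pi.single (M := fun _ => ℝ) d 1 j : ℝ) : ℂ) * ft (ce s i j) ξ = ft (ce s c d) ξ := by
      intro c d
      rw [Finset.sum_eq_single c]
      · rw [Finset.sum_eq_single d]
        · simp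
        · intro j _ hj
          simp [Pi.single_eq_of_ne hj]
        · intro h; exact absurd (Finset.mem_univ d) h
      · intro i _ hi
        refine Finset.sum_eq_zero fun j _ => ?_
        simp [Pi.single_eq_of_ne hi]
      · intro h; exact absurd (Finset.mem_univ c) h
    have haa := k2 ξ (Pi.single a 1)
    have hbb := k2 ξ (Pi.single b 1)
    have hab := k2 ξ (Pi.single a 1 + Pi.single b 1)
    rw [e] at haa hbb
    have h5 : ∑ i, ∑ j, (((Pi.single a 1 + Pi.single b 1 : V n) i : ℝ) : ℂ) *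
        (((Pi.single a 1 + Pi.single b 1 : V n) j : ℝ) : ℂ) * ft (ce s i j) ξ =
        ft (ce s a a) ξ + ft (ce s a b) ξ + ft (ce s b a) ξ + ft (ce s b b) ξ := by
      rw [← e a a, ← e a b, ← e b a, ← e b b]
      simp only [← Finset.sum_add_distrib]
      refine Finset.sum_congr rfl fun i _ => Finset.sum_congr rfl fun j _ => ?_
      simp only [Pi.add_apply]
      push_cast
      ring
    rw [h5, haa, hbb, hsf ξ b a] at hab
    have h6 : 2 * ft (ce s a b) ξ = 0 := by linear_combination hab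
    rcases mul_eq_zero.1 h6 with h7 | h7
    · norm_num at h7
    · exact h7
  intro x i j
  exact fzero (hs i j) (hcs i j) (fun ξ => k3 ξ i j) x

end lin

end Vale.Agent.P088.H641.L
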