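import Vale.Agent.P088.H641.L.C

/-!
# P088, two general metrics near `e`: the theorem
-/

open MeasureTheory Set Filter Topology
open scoped ContDiff Matrix

noncomputable section

namespace Vale.Agent.P088.H641.L

open Vale.Agent.P088.LR Vale.Agent.P088.LR.B Vale.Agent.P088.LR.B.H43 Vale.Agent.P088.H639
  Vale.Agent.P088.H884 Vale.Agent.P088.H109
open Vale.Agent.P088.H776 (ex_contDiff ex_pd ex_norm)

variable {n : ℕ}

/-- The hypotheses on a pair of tensors. -/
structure Pr (Ω : Set (V n)) (K δ : ℝ) (s t : MF n) : Prop where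
  ss : SmM s
  st : SmM t
  ys : ∀ x, (s x).IsSymm
  yt : ∀ x, (t x).IsSymm
  ps : ∀ x, (s x).PosSemidef
  pt : ∀ x, (t x).PosSemidef
  ns : ∀ x ∈ Ω, ∀ i j, |s x i j - dl i j| ≤ δ
  nt : ∀ x ∈ Ω, ∀ i j, |t x i j - dl i j| ≤ δ
  se : SE Ω s t
  off : ∀ x ∉ Ω, t x = s x
  dv : ∀ j x, ∑ i, pd i (fun y => t y i j - s y i j) x = 0
  lip : ∀ M, (∀ i j x, |t x i j - s x i j| ≤ M) → ∀ i j x y,
    |(t x i j - s x i j) - (t y i j - s y i j)| ≤ K * M * dist x y

theorem Pr.mono {Ω : Set (V n)} {K K' δ : ℝ} {s t : MF n} (h : Pr Ω K δ s t) (hn : 0 < n)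
    (hK : K ≤ K') : Pr Ω K' δ s t :=
  { h with
    lip := fun M hM i j x y => (h.lip M hM i j x y).trans (by
      have hM0 : 0 ≤ M := (abs_nonneg _).trans (hM i j x)
      gcongr) }

/-- the two-sided estimate -/
theorem two_sided {Ω : Set (V n)} (hO : IsOpen Ω) (hb : Bornology.IsBounded Ω) {K δ M : ℝ}
    {s t : MF n} (h : Pr Ω K δ s t) (hn : 0 < n) (hδ : 0 < δ) (hc : n * δ ≤ 1 / 4)
    (hM0 : 0 ≤ M) (hM : ∀ i j x, |t x i j - s x i j| ≤ M) {U : V n → ℝ}
    (hU : Sl Ω (fun _ => 1) U) :
    |rb Ω (fun x => t x - s x) U U| ≤ 11 * M * n * (n * δ) * DI Ω U := by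
  have cs : ∀ i j, Continuous fun x => s x i j := fun i j => (h.ss i j).continuous
  have ct : ∀ i j, Continuous fun x => t x i j := fun i j => (h.st i j).continuous
  have h1 := lower hO hb cs ct h.ys h.yt h.pt hn hδ hc h.ns hM0 (fun x _ i j => hM i j x) hU
    (h.se U hU.1)
  have h2 := lower hO hb ct cs h.yt h.ys h.ps hn hδ hc h.nt hM0
    (fun x _ i j => by rw [abs_sub_comm]; exact hM i j x) hU (h.se U hU.1).symm
  rw [rb_subx hb ct cs hU.1 hU.1] at h2
  rw [rb_subx hb cs ct hU.1 hU.1] at h1 ⊢
  rw [abs_le]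
  constructor <;> linarith

/-- Fourier transforms of uniformly close functions. -/
theorem ft_close {f g : V n → ℂ} (hf : Continuous f) (hg : Continuous g) {S : Set (V n)}
    (hS : IsCompact S) (hf0 : ∀ x ∉ S, f x = 0) (hg0 : ∀ x ∉ S, g x = 0) {δ : ℝ}
    (h : ∀ x, ‖f x - g x‖ ≤ δ) (ξ : V n) :
    ‖ft f ξ - ft g ξ‖ ≤ δ * (volume S).toReal := by
  have cf : HasCompactSupport f := HasCompactSupport.intro hS hf0
  have cg : HasCompactSupport g := HasCompactSupport.intro hS hg0
  have ce := (ex_contDiff (-ξ)).continuous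
  have i1 : Integrable fun x => f x * ex (-ξ) x :=
    (hf.mul ce).integrable_of_hasCompactSupport cf.mul_right
  have i2 : Integrable fun x => g x * ex (-ξ) x :=
    (hg.mul ce).integrable_of_hasCompactSupport cg.mul_right
  have e1 : ft f ξ - ft g ξ = ∫ x in S, (f x - g x) * ex (-ξ) x := by
    rw [setIntegral_eq_integral_of_forall_compl_eq_zero]
    · unfold ft
      rw [← integral_sub i1 i2]
      exact integral_congr_ae (Eventually.of_forall fun x => by simp only; ring)
    · intro x hx
      rw [hf0 x hx, hg0 x hx]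
      simp
  rw [e1]
  have h2 := norm_setIntegral_le_of_norm_le_const (μ := (volume : Measure (V n)))
    (f := fun x => (f x - g x) * ex (-ξ) x) (C := δ) hS.measure_lt_top fun x _ => by
      rw [norm_mul, ex_norm, mul_one]
      exact h x
  exact h2

/-- **Two general tensors near `1`.** -/
theorem two_tens (hn : 0 < n) {Ω : Set (V n)} (hO : IsOpen Ω) (hb : Bornology.IsBounded Ω)
    (K : ℝ) : ∃ δ > 0, ∀ s t : MF n, Pr Ω K δ s t → ∀ x, t x = s x := by
  have hn0 : (0 : ℝ) < n := by exact_mod_cast hn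
  by_contra hcon
  have H : ∀ m : ℕ, ∃ s t : MF n, Pr Ω K (1 / (4 * n * ((m : ℝ) + 1))) s t ∧
      ∃ x, t x ≠ s x := by
    intro m
    by_contra h
    refine hcon ⟨1 / (4 * n * ((m : ℝ) + 1)), by positivity, fun s t hP x => ?_⟩
    by_contra h2
    exact h ⟨s, t, hP, x, h2⟩
  choose s t hP z hz using H
  set δ : ℕ → ℝ := fun m => 1 / (4 * n * ((m : ℝ) + 1)) with hδ
  have hδ0 : ∀ m, 0 < δ m := fun m => by simp only [hδ]; positivity
  have hδc : ∀ m, n * δ m ≤ 1 / 4 := fun m => by
    simp only [hδ]
    rw [mul_one_div, div_le_iff₀ (by positivity)]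
    have : (0 : ℝ) ≤ m := Nat.cast_nonneg m
    nlinarith
  obtain ⟨R, hR⟩ := hb.subset_closedBall (0 : V n)
  -- the differences
  let h : ℕ → V n → Fin n → Fin n → ℝ := fun m x i j => t m x i j - s m x i j
  have hc : ∀ m, Continuous (h m) := fun m => continuous_pi fun i => continuous_pi fun j =>
    ((hP m).st i j).continuous.sub ((hP m).ss i j).continuous
  have h0 : ∀ m, ∀ x ∉ Ω, h m x = 0 := fun m x hx => by
    funext i j
    show t m x i j - s m x i j = 0
    rw [(hP m).off x hx, sub_self]
  have hcs : ∀ m, HasCompactSupport (h m) := fun m =>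
    HasCompactSupport.intro (isCompact_closedBall (0 : V n) R) fun x hx =>
      h0 m x fun h' => hx (hR h')
  have hmax : ∀ m, ∃ y, ∀ x, ‖h m x‖ ≤ ‖h m y‖ := fun m =>
    (hc m).norm.exists_forall_ge_of_hasCompactSupport (hcs m).norm
  choose y hy using hmax
  have hM : ∀ m, 0 < ‖h m (y m)‖ := fun m => by
    refine lt_of_lt_of_le ?_ (hy m (z m))
    rw [norm_pos_iff]
    intro h1
    apply hz m
    ext i j
    have : t m (z m) i j - s m (z m) i j = 0 := congrFun (congrFun h1 i) j
    linarith
  set M : ℕ → ℝ := fun m => ‖h m (y m)‖ with hMd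
  have hent : ∀ m i j x, |t m x i j - s m x i j| ≤ M m := fun m i j x => by
    have h1 : ‖h m x i j‖ ≤ ‖h m x‖ := (norm_le_pi_norm (h m x i) j).trans
      (norm_le_pi_norm (h m x) i)
    exact h1.trans (hy m x)
  -- normalised
  let F : ℕ → V n → Fin n → Fin n → ℝ := fun m x => (M m)⁻¹ • h m x
  have hFa : ∀ m x i j, F m x i j = (M m)⁻¹ * (t m x i j - s m x i j) := fun m x i j => rfl
  have hFc : ∀ m, Continuous (F m) := fun m => continuous_pi fun i => continuous_pi fun j => by
    have h1 : (fun x => F m x i j) = fun x => (M m)⁻¹ * (t m x i j - s m x i j) := by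
      funext x
      exact hFa m x i j
    rw [h1]
    exact continuous_const.mul (((hP m).st i j).continuous.sub ((hP m).ss i j).continuous)
  have hF0 : ∀ m, ∀ x ∉ Ω, F m x = 0 := fun m x hx => by
    show (M m)⁻¹ • h m x = 0
    rw [h0 m x hx, smul_zero]
  have hF1 : ∀ m x, ‖F m x‖ ≤ 1 := fun m x => by
    show ‖(M m)⁻¹ • h m x‖ ≤ 1
    rw [norm_smul, norm_inv, Real.norm_of_nonneg (hM m).le, inv_mul_le_iff₀ (hM m), mul_one]
    exact hy m x
  have hFL : ∀ m x x', dist (F m x) (F m x') ≤ |K| * dist x x' := fun m x x' => by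
    have hr : 0 ≤ |K| * dist x x' := by positivity
    refine (dist_pi_le_iff hr).2 fun i => (dist_pi_le_iff hr).2 fun j => ?_
    rw [hFa, hFa, Real.dist_eq, ← mul_sub, abs_mul, abs_inv, abs_of_pos (hM m),
      inv_mul_le_iff₀ (hM m)]
    refine ((hP m).lip (M m) (hent m) i j x x').trans ?_
    have h1 : K * M m * dist x x' ≤ |K| * M m * dist x x' := by
      have := le_abs_self K
      have h2 := (hM m).le
      gcongr
    refine h1.trans (le_of_eq ?_)
    show |K| * M m * dist x x' = M m * (|K| * dist x x')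
    ring
  obtain ⟨φ, G, hφ, hG, -, hlim⟩ := aaV (K := |K|) (R := R) F hF1 hFL fun m x hx =>
    hF0 m x fun h' => hx (hR h')
  have hφm : ∀ m, m ≤ φ m := fun m => hφ.le_apply
  have hlimE : ∀ ε > 0, ∃ N, ∀ m ≥ N, ∀ x i j, |F (φ m) x i j - G x i j| ≤ ε := by
    intro ε hε
    obtain ⟨N, hN⟩ := hlim ε hε
    refine ⟨N, fun m hm x i j => ?_⟩
    have h1 := hN m hm x
    have h2 := (dist_le_pi_dist (F (φ m) x i) (G x i) j).trans
      (dist_le_pi_dist (F (φ m) x) (G x) i)
    rw [Real.dist_eq] at h2
    exact h2.trans h1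
  let S : MF n := fun x => Matrix.of (G x)
  have hSc : ∀ i j, Continuous fun x => S x i j := fun i j =>
    (continuous_apply j).comp ((continuous_apply i).comp hG)
  have hS0 : ∀ x ∉ Ω, S x = 0 := by
    intro x hx
    ext i j
    have : |G x i j| ≤ 0 := by
      refine le_of_forall_pos_le_add fun ε hε => ?_
      obtain ⟨N, hN⟩ := hlimE ε hε
      have h1 := hN N le_rfl x i j
      rw [hF0 _ x hx] at h1
      simpa using h1
    exact abs_nonpos_iff.1 this
  have hSy : ∀ x, (S x).IsSymm := by
    intro x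
    ext i j
    show G x j i = G x i j
    have : |G x j i - G x i j| ≤ 0 := by
      refine le_of_forall_pos_le_add fun ε hε => ?_
      obtain ⟨N, hN⟩ := hlimE (ε / 2) (half_pos hε)
      have h1 := hN N le_rfl x i j
      have h2 := hN N le_rfl x j i
      have h3 : F (φ N) x i j = F (φ N) x j i := by
        rw [hFa, hFa, ((hP (φ N)).yt x).apply j i, ((hP (φ N)).ys x).apply j i]
      rw [h3] at h1
      rw [abs_le] at h1 h2 ⊢
      constructor <;> linarith
    exact sub_eq_zero.1 (abs_nonpos_iff.1 this)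
  have hDI : ∀ U : V n → ℝ, 0 ≤ DI Ω U := fun U => setIntegral_nonneg hO.measurableSet fun x _ =>
    Finset.sum_nonneg fun i _ => sq_nonneg _
  -- energies of the limit
  have hE : ∀ u, Sl Ω (fun _ => 1) u → rb Ω S u u = 0 := by
    intro u hu
    have key : ∀ ε > 0, |rb Ω S u u| ≤ (n * DI Ω u + 11 * n * (n * DI Ω u)) * ε := by
      intro ε hε
      obtain ⟨N₁, hN₁⟩ := hlimE ε hε
      obtain ⟨N₂, hN₂⟩ := exists_nat_gt (1 / ε)
      set m := max N₁ N₂ with hm
      set T := φ m with hT
      have hTm : (N₂ : ℝ) ≤ T := by exact_mod_cast (le_max_right _ _).trans (hφm m)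
      have hδT : δ T ≤ ε := by
        simp only [hδ]
        rw [div_le_iff₀ (by positivity)]
        rw [div_lt_iff₀ hε] at hN₂
        have hn1 : (1 : ℝ) ≤ n := by exact_mod_cast hn
        have h1 : (N₂ : ℝ) * ε ≤ T * ε := mul_le_mul_of_nonneg_right hTm hε.le
        have h2 : (T : ℝ) * ε ≤ ε * (4 * n * ((T : ℝ) + 1)) := by
          have : (T : ℝ) ≤ 4 * n * ((T : ℝ) + 1) := by
            have : (0 : ℝ) ≤ T := Nat.cast_nonneg T
            nlinarith
          calc (T : ℝ) * ε = ε * T := mul_comm _ _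
            _ ≤ _ := mul_le_mul_of_nonneg_left this hε.le
        linarith
      have h1 := two_sided hO hb (hP T) hn (hδ0 T) (hδc T) (hM T).le (hent T) hu
      have cst : ∀ i j, Continuous fun x => (fun x => t T x - s T x : MF n) x i j := fun i j =>
        ((hP T).st i j).continuous.sub ((hP T).ss i j).continuous
      have h2 : |(M T)⁻¹ * rb Ω (fun x => t T x - s T x) u u| ≤ 11 * n * (n * δ T) * DI Ω u := by
        rw [abs_mul, abs_inv, abs_of_pos (hM T), inv_mul_le_iff₀ (hM T)]
        refine h1.trans (le_of_eq ?_)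
        ring
      have h3 : |rb Ω S u u - (M T)⁻¹ * rb Ω (fun x => t T x - s T x) u u| ≤ ε * n * DI Ω u := by
        have e : rb Ω S u u - (M T)⁻¹ * rb Ω (fun x => t T x - s T x) u u =
            ∫ x in Ω, ∑ i, ∑ j, (G x i j - F T x i j) * pd i u x * pd j u x := by
          unfold rb
          rw [← integral_const_mul, ← integral_sub (intO hb (qc hSc hu.1 hu.1))
            ((intO hb (qc cst hu.1 hu.1)).const_mul _)]
          refine integral_congr_ae (Eventually.of_forall fun x => ?_)
          simp only [Finset.mul_sum, ← Finset.sum_sub_distrib]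
          refine Finset.sum_congr rfl fun i _ => Finset.sum_congr rfl fun j _ => ?_
          rw [hFa, Matrix.sub_apply]
          show G x i j * pd i u x * pd j u x - _ = _
          ring
        rw [e]
        have h4 : ∀ x ∈ Ω, ‖∑ i, ∑ j, (G x i j - F T x i j) * pd i u x * pd j u x‖ ≤
            ε * n * ∑ i, pd i u x ^ 2 := by
          intro x _
          have h5 := bil_bd (T := fun i j => G x i j - F T x i j) (fun i j => by
            rw [abs_sub_comm]
            exact hN₁ m (le_max_left _ _) x i j) hε.le (l := 1) one_pos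
            (fun i => pd i u x) (fun i => pd i u x)
          rw [Real.norm_eq_abs]
          refine h5.trans (le_of_eq ?_)
          ring
        rw [← Real.norm_eq_abs]
        refine (norm_integral_le_of_norm_le ((intO hb (dic hu.1)).const_mul (ε * n)) ?_).trans
          (le_of_eq ?_)
        · exact (ae_restrict_iff' hO.measurableSet).2 (Eventually.of_forall h4)
        · rw [integral_const_mul]
          rfl
      have h6 : |rb Ω S u u| ≤ ε * n * DI Ω u + 11 * n * (n * δ T) * DI Ω u := by
        have := abs_add_le (rb Ω S u u - (M T)⁻¹ * rb Ω (fun x => t T x - s T x) u u)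
          ((M T)⁻¹ * rb Ω (fun x => t T x - s T x) u u)
        rw [sub_add_cancel] at this
        linarith
      have h7 : 11 * n * (n * δ T) * DI Ω u ≤ 11 * n * (n * ε) * DI Ω u := by
        have := hDI u
        gcongr
      refine h6.trans ?_
      refine (add_le_add_right h7 _).trans (le_of_eq ?_)
      ring
    have hκ : 0 ≤ n * DI Ω u + 11 * n * (n * DI Ω u) := by
      have := hDI u
      positivity
    have h8 : |rb Ω S u u| ≤ 0 := by
      refine le_of_forall_pos_le_add fun θ hθ => ?_
      have h9 := key (θ / (n * DI Ω u + 11 * n * (n * DI Ω u) + 1)) (by positivity)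
      refine h9.trans ?_
      rw [zero_add, mul_div_assoc', div_le_iff₀ (by positivity)]
      nlinarith
    exact abs_nonpos_iff.1 h8
  -- divergence of the limit
  have hd : ∀ (ξ : V n) j, ∑ i, (ξ i : ℂ) * ft (ce S i j) ξ = 0 := by
    intro ξ j
    have hball : IsCompact (Metric.closedBall (0 : V n) R) := isCompact_closedBall _ _
    have hFt : ∀ m, ∑ i, (ξ i : ℂ) * ft (fun x => ((F m x i j : ℝ) : ℂ)) ξ = 0 := by
      intro m
      have hsm : ∀ i, ContDiff ℝ ∞ fun x => ((t m x i j - s m x i j : ℝ) : ℂ) := fun i =>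
        Complex.ofRealCLM.contDiff.comp (((hP m).st i j).sub ((hP m).ss i j))
      have hcsi : ∀ i, HasCompactSupport fun x => ((t m x i j - s m x i j : ℝ) : ℂ) := fun i =>
        HasCompactSupport.intro hball fun x hx => by
          have : t m x i j - s m x i j = 0 := by
            rw [(hP m).off x fun h' => hx (hR h'), sub_self]
          rw [this]
          simp
      have h1 : ∑ i, ft (pd i fun x => ((t m x i j - s m x i j : ℝ) : ℂ)) ξ = 0 := by
        unfold ft
        rw [← integral_finsetSum _ fun i _ => ?_]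
        · have h2 : ∀ x, ∑ i, pd i (fun x => ((t m x i j - s m x i j : ℝ) : ℂ)) x *
              ex (-ξ) x = 0 := by
            intro x
            have h3 : ∀ i, pd i (fun x => ((t m x i j - s m x i j : ℝ) : ℂ)) x =
                ((pd i (fun y => t m y i j - s m y i j) x : ℝ) : ℂ) := fun i => by
              have hdiff : DifferentiableAt ℝ (fun y => t m y i j - s m y i j) x :=
                ((((hP m).st i j).sub ((hP m).ss i j)).differentiable (by simp)) x
              unfold pd
              have h4 := (Complex.ofRealCLM.hasFDerivAt.comp x hdiff.hasFDerivAt).fderiv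
              have h5 : (fun x => ((t m x i j - s m x i j : ℝ) : ℂ)) =
                  (⇑Complex.ofRealCLM ∘ fun y => t m y i j - s m y i j) := rfl
              rw [h5, h4]
              rfl
            simp only [h3, ← Finset.sum_mul, ← Complex.ofReal_sum, (hP m).dv j x,
              Complex.ofReal_zero, zero_mul]
          simp only [h2, integral_zero]
        · exact ((H776.pd_contDiff (hsm i) i).continuous.mul
            (ex_contDiff _).continuous).integrable_of_hasCompactSupport
            ((hcsi i).fderiv_apply (𝕜 := ℝ) (v := Pi.single i 1)).mul_right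
      have h6 : ∀ i, ft (pd i fun x => ((t m x i j - s m x i j : ℝ) : ℂ)) ξ =
          2 * Real.pi * Complex.I * (ξ i : ℂ) *
            ft (fun x => ((t m x i j - s m x i j : ℝ) : ℂ)) ξ := fun i =>
        ft_pd' (hsm i) (hcsi i) ξ i
      have h7 : ∀ i, ft (fun x => ((F m x i j : ℝ) : ℂ)) ξ = (((M m)⁻¹ : ℝ) : ℂ) *
          ft (fun x => ((t m x i j - s m x i j : ℝ) : ℂ)) ξ := fun i => by
        unfold ft
        rw [← integral_const_mul]
        refine integral_congr_ae (Eventually.of_forall fun x => ?_)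
        simp only [hFa]
        push_cast
        ring
      have h8 : 2 * Real.pi * Complex.I * ∑ i, (ξ i : ℂ) *
          ft (fun x => ((t m x i j - s m x i j : ℝ) : ℂ)) ξ = 0 := by
        rw [← h1, Finset.mul_sum]
        refine Finset.sum_congr rfl fun i _ => ?_
        rw [h6 i]
        ring
      have h9 : ∑ i, (ξ i : ℂ) * ft (fun x => ((t m x i j - s m x i j : ℝ) : ℂ)) ξ = 0 := by
        rcases mul_eq_zero.1 h8 with h | h
        · exfalso
          have : (2 : ℂ) * Real.pi * Complex.I ≠ 0 := by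
            simp [Real.pi_ne_zero, Complex.I_ne_zero]
          exact this h
        · exact h
      have h10 : ∑ i, (ξ i : ℂ) * ft (fun x => ((F m x i j : ℝ) : ℂ)) ξ =
          (((M m)⁻¹ : ℝ) : ℂ) * ∑ i, (ξ i : ℂ) *
            ft (fun x => ((t m x i j - s m x i j : ℝ) : ℂ)) ξ := by
        rw [Finset.mul_sum]
        refine Finset.sum_congr rfl fun i _ => ?_
        rw [h7 i]
        ring
      rw [h10, h9, mul_zero]
    set v : ℝ := (volume (Metric.closedBall (0 : V n) R)).toReal with hv
    have hv0 : 0 ≤ v := ENNReal.toReal_nonneg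
    have key : ∀ ε > 0, ‖∑ i, (ξ i : ℂ) * ft (ce S i j) ξ‖ ≤ ((∑ i, |ξ i|) * v) * ε := by
      intro ε hε
      obtain ⟨N, hN⟩ := hlimE ε hε
      have e : ∑ i, (ξ i : ℂ) * ft (ce S i j) ξ = ∑ i, (ξ i : ℂ) *
          (ft (ce S i j) ξ - ft (fun x => ((F (φ N) x i j : ℝ) : ℂ)) ξ) := by
        simp only [mul_sub, Finset.sum_sub_distrib, hFt, sub_zero]
      rw [e]
      calc _ ≤ ∑ i, |ξ i| * (ε * v) := by
            refine (norm_sum_le _ _).trans (Finset.sum_le_sum fun i _ => ?_)
            rw [norm_mul, Complex.norm_real, Real.norm_eq_abs]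
            refine mul_le_mul_of_nonneg_left ?_ (abs_nonneg _)
            refine ft_close (Complex.continuous_ofReal.comp (hSc i j))
              (Complex.continuous_ofReal.comp ((continuous_apply j).comp
                ((continuous_apply i).comp (hFc (φ N))))) hball (fun x hx => ?_)
              (fun x hx => ?_) (fun x => ?_) ξ
            · simp [ce, hS0 x fun h' => hx (hR h')]
            · simp [hF0 (φ N) x fun h' => hx (hR h')]
            · show ‖((G x i j : ℝ) : ℂ) - ((F (φ N) x i j : ℝ) : ℂ)‖ ≤ ε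
              rw [← Complex.ofReal_sub, Complex.norm_real, Real.norm_eq_abs, abs_sub_comm]
              exact hN N le_rfl x i j
        _ = _ := by rw [← Finset.sum_mul]; ring
    have hκ : 0 ≤ (∑ i, |ξ i|) * v := mul_nonneg (Finset.sum_nonneg fun i _ => abs_nonneg _) hv0
    have h8 : ‖∑ i, (ξ i : ℂ) * ft (ce S i j) ξ‖ ≤ 0 := by
      refine le_of_forall_pos_le_add fun θ hθ => ?_
      have h9 := key (θ / ((∑ i, |ξ i|) * v + 1)) (by positivity)
      refine h9.trans ?_
      rw [zero_add, mul_div_assoc', div_le_iff₀ (by positivity)]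
      nlinarith
    exact norm_le_zero_iff.1 h8
  -- contradiction
  have hz0 := lin hn hO hb hSc hSy hE hS0 hd
  obtain ⟨N, hN⟩ := hlim (1 / 2) (by norm_num)
  have h1 := hN N le_rfl (y (φ N))
  have h2 : G (y (φ N)) = 0 := by
    funext i j
    exact hz0 (y (φ N)) i j
  rw [h2, dist_zero_right] at h1
  have h3 : ‖F (φ N) (y (φ N))‖ = 1 := by
    show ‖(M (φ N))⁻¹ • h (φ N) (y (φ N))‖ = 1
    rw [norm_smul, norm_inv, Real.norm_of_nonneg (hM (φ N)).le]
    exact inv_mul_cancel₀ (hM (φ N)).ne'
  rw [h3] at h1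
  norm_num at h1

end Vale.Agent.P088.H641.L
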