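import Vale.Agent.P088.H641.L.D
import Vale.Agent.P088.H443.SGC
import Vale.Agent.P088.H833.Top
import Vale.Agent.P088.H639.Push

/-!
# P088, theorem L: two general metrics near `e`, metric form
-/

open MeasureTheory Set Filter Topology
open scoped ContDiff Matrix

noncomputable section

namespace Vale.Agent.P088.H641.L

open Vale.Agent.P088.LR Vale.Agent.P088.LR.B Vale.Agent.P088.H639

variable {n : ℕ}

/-- `√(det A) A⁻¹` determines `A`, `n ≥ 3`. -/
theorem sg_inj (hn : 3 ≤ n) {A B : Matrix (Fin n) (Fin n) ℝ} (hA : A.PosDef) (hB : B.PosDef)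
    (h : √A.det • A⁻¹ = √B.det • B⁻¹) : A = B := by
  set a : ℝ := √A.det with ha
  set b : ℝ := √B.det with hb
  have ha0 : 0 < a := Real.sqrt_pos.2 hA.det_pos
  have hb0 : 0 < b := Real.sqrt_pos.2 hB.det_pos
  have ha2 : a ^ 2 = A.det := Real.sq_sqrt hA.det_pos.le
  have hb2 : b ^ 2 = B.det := Real.sq_sqrt hB.det_pos.le
  have hAu : IsUnit A.det := hA.det_pos.ne'.isUnit
  have hBu : IsUnit B.det := hB.det_pos.ne'.isUnit
  have h1 : a • B = b • A := by
    have e1 : A * (a • A⁻¹) * B = a • B := by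
      rw [Matrix.mul_smul, Matrix.mul_nonsing_inv A hAu, Matrix.smul_mul, Matrix.one_mul]
    have e2 : A * (b • B⁻¹) * B = b • A := by
      rw [Matrix.mul_smul, Matrix.smul_mul, Matrix.mul_assoc, Matrix.nonsing_inv_mul B hBu,
        Matrix.mul_one]
    rw [← e1, ← e2, h]
  have h2 : a ^ n * b ^ 2 = b ^ n * a ^ 2 := by
    have := congrArg Matrix.det h1
    rw [Matrix.det_smul, Matrix.det_smul, Fintype.card_fin, ← ha2, ← hb2] at this
    exact this
  obtain ⟨k, rfl⟩ : ∃ k, n = k + 1 + 2 := ⟨n - 3, by omega⟩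
  have h3 : a ^ (k + 1) = b ^ (k + 1) := by
    have h4 : (a ^ 2 * b ^ 2) * a ^ (k + 1) = (a ^ 2 * b ^ 2) * b ^ (k + 1) := by
      rw [pow_add a (k + 1) 2, pow_add b (k + 1) 2] at h2
      linear_combination h2
    exact mul_left_cancel₀ (by positivity) h4
  have h5 : a = b := (pow_left_inj₀ ha0.le hb0.le (Nat.succ_ne_zero k)).1 h3
  rw [h5] at h1
  have h6 := congrArg (fun M => b⁻¹ • M) h1
  simp only [smul_smul, inv_mul_cancel₀ hb0.ne', one_smul] at h6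
  exact h6.symm

/-- **Theorem L.** Two general metrics which are `C^0`-near the Euclidean one, in relative harmonic
gauge, with the same Dirichlet energies, are equal unless their difference oscillates. -/
theorem two_metrics (hn : 3 ≤ n) {Ω : Set (V n)} (hO : IsOpen Ω) (hb : Bornology.IsBounded Ω)
    (K : ℝ) : ∃ ε > 0, ∀ g₁ g₂ : MF n, SmM g₁ → SmM g₂ → (∀ x, (g₁ x).PosDef) →
    (∀ x, (g₂ x).PosDef) → (∀ x ∈ Ω, ∀ i j, |g₁ x i j - dl i j| ≤ ε) →
    (∀ x ∈ Ω, ∀ i j, |g₂ x i j - dl i j| ≤ ε) → SE Ω (sg g₁) (sg g₂) →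
    (∀ x ∉ Ω, g₂ x = g₁ x) →
    (∀ j x, ∑ i, pd i (fun y => sg g₂ y i j - sg g₁ y i j) x = 0) →
    (∀ M, (∀ i j x, |sg g₂ x i j - sg g₁ x i j| ≤ M) → ∀ i j x y,
      |(sg g₂ x i j - sg g₁ x i j) - (sg g₂ y i j - sg g₁ y i j)| ≤ K * M * dist x y) →
    ∀ x, g₂ x = g₁ x := by
  obtain ⟨δ, hδ, H⟩ := two_tens (n := n) (by omega) hO hb K
  obtain ⟨ε, hε, hS⟩ := H443.sgc n 1 1 δ one_pos hδ
  refine ⟨ε, hε, fun g₁ g₂ s1 s2 p1 p2 n1 n2 hSE hoff hdv hlip x => ?_⟩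
  have near : ∀ g : MF n, (∀ x ∈ Ω, ∀ i j, |g x i j - dl i j| ≤ ε) →
      ∀ x ∈ Ω, ∀ i j, |sg g x i j - dl i j| ≤ δ := by
    intro g hg y hy i j
    have h1 := hS (g y) 1 le_rfl le_rfl (fun k l => by
      rw [one_mul]
      exact hg y hy k l) i j
    rw [Real.one_rpow, one_mul] at h1
    exact h1
  have h1 := H (sg g₁) (sg g₂)
    { ss := H833.smM_sg s1 p1
      st := H833.smM_sg s2 p2
      ys := H833.symm_sg p1
      yt := H833.symm_sg p2
      ps := psd_sg p1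
      pt := psd_sg p2
      ns := near g₁ n1
      nt := near g₂ n2
      se := hSE
      off := fun y hy => by simp only [sg, hoff y hy]
      dv := hdv
      lip := hlip } x
  exact sg_inj hn (p2 x) (p1 x) h1

/-- Special case: the difference lies in a fixed finite-dimensional space, in the form of a bound of
the Lipschitz constant by the supremum. -/
theorem two_metrics_dom (hn : 3 ≤ n) (ρ : V n → ℝ) (hρ : SDom ρ) (K : ℝ) :
    ∃ ε > 0, ∀ g₁ g₂ : MF n, SmM g₁ → SmM g₂ → (∀ x, (g₁ x).PosDef) →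
    (∀ x, (g₂ x).PosDef) → (∀ x ∈ Om ρ, ∀ i j, |g₁ x i j - dl i j| ≤ ε) →
    (∀ x ∈ Om ρ, ∀ i j, |g₂ x i j - dl i j| ≤ ε) → SE (Om ρ) (sg g₁) (sg g₂) →
    (∀ x ∉ Om ρ, g₂ x = g₁ x) →
    (∀ j x, ∑ i, pd i (fun y => sg g₂ y i j - sg g₁ y i j) x = 0) →
    (∀ M, (∀ i j x, |sg g₂ x i j - sg g₁ x i j| ≤ M) → ∀ i j x y,
      |(sg g₂ x i j - sg g₁ x i j) - (sg g₂ y i j - sg g₁ y i j)| ≤ K * M * dist x y) →
    ∀ x, g₂ x = g₁ x :=
  two_metrics hn (isOpen_lt continuous_const hρ.sm.continuous)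
    (hρ.bd.subset fun x (hx : 0 < ρ x) => hx.le) K

end Vale.Agent.P088.H641.L
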